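import Vale.Agent.Lib.P073.Main

/-!
# P073: monotone Sobolev maps that are the identity near the boundary are
diffeomorphically approximable in `W^{1,p}`, for every `1 ≤ p < ∞`, in dimension three

Let `Ω ⊆ ℝ³` be bounded and open, `1 ≤ p < ∞`, and let `f ∈ W^{1,p}(Ω; ℝ³)` be monotone in the sense
of Minty, `⟨f x - f y, x - y⟩ ≥ 0` on `Ω`, and equal to the identity outside a compact subset of `Ω`.
Then there are `C^∞` diffeomorphisms of `Ω` onto `Ω` converging to `f` in `W^{1,p}(Ω; ℝ³)`.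
-/

namespace Vale.Agent.Results.P073.MonotoneApprox

open Vale.Agent.Lib.P073

theorem result (p : ℝ) (hp : 1 ≤ p) (Ω : Set E3) (hΩo : IsOpen Ω) (hΩb : Bornology.IsBounded Ω)
    (f : E3 → E3) (G : E3 → Matrix (Fin 3) (Fin 3) ℝ) (hW : MemW1p p Ω f G)
    (hmono : ∀ x ∈ Ω, ∀ y ∈ Ω, 0 ≤ inner ℝ (f x - f y) (x - y))
    (hbd : ∃ K : Set E3, IsCompact K ∧ K ⊆ Ω ∧ ∀ x ∈ Ω \ K, f x = x) :
    DiffeoApproximable p Ω Ω f := by
  obtain ⟨K, hK, hKΩ, hid⟩ := hbd
  exact monotone_approximable p hp Ω hΩo hΩb f G hW hmono K hK hKΩ hid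

end Vale.Agent.Results.P073.MonotoneApprox
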